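import Vale.Agent.P097.H509.St.Rec
import Vale.Agent.P097.H509.St.Pcl
import Vale.Agent.P097.H560.Back2
import Vale.Agent.P097.H103.T.LatAl
import Vale.Agent.P097.H19.Lat
import Vale.Agent.P097.TC.Defs5

/-!
# P097 / block (T): inputs of `TdSt` at a pick

`octave`, `drift` : the lines along the ancestors of the pick (from `MV`).
`unit_bd` : the lines at the unit scale (from `LNb.hon`), on compacts of the straight wide tube.
`pick_in` : crude bound `A n` with `r n * A n → 0`; `pick_c` : the lines at the pick, mod `2π`.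
-/

set_option linter.all false

open Complex Metric Filter Topology Set
open scoped ComplexConjugate

namespace Vale.Agent.P097.H920.PickIn

open Vale.Agent.P097.TC Vale.Agent.P097.H226.W Vale.Agent.P097.H845.St Vale.Agent.P097.H509.St
open Vale.Agent.P097.H85 Vale.Agent.P097.H929 Vale.Agent.P097.H560

/-- one octave of ancestors -/
theorem octave {Λ b : ℝ} {F q : ℂ → ℂ} (hc : Cv Λ b F q) (hg : Grw b F q) {X om e V : ℝ}
    (hX : 2 ≤ X) (hom : 0 < om) (hom1 : om ≤ 1) (he : 0 < e) (hV : 0 ≤ V) :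
    ∃ C : ℝ, 0 ≤ C ∧ ∀ {δ : ℝ} {al p th : ℂ × ℂ → ℂ}, SW Λ b F q δ 1 al p th →
      ∀ y₀ x₀ : ℝ, |y₀| ≤ 1 / 8 → |x₀| ≤ 1 / 8 → ∀ h : ℝ, 0 < h → (X + 5) * h ≤ 1 / 2 →
      MV b F al th X om e V y₀ x₀ h →
      (∀ t : ℝ, h / 2 ≤ t → t ≤ h → ‖al (pt y₀ x₀ t) - al (pt y₀ x₀ h)‖ ≤ C) ∧
      ‖p (pt y₀ x₀ h)‖ ≤ C ∧ |(al (pt y₀ x₀ h)).im| ≤ C := by
  obtain ⟨K, hK, N, hN, H⟩ := Vale.Agent.P097.H103.T.lat_al Vale.Agent.P097.H19.lat hc hg 1 one_pos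
    e X om he (by linarith) hom hom1
  have hK0 : 0 ≤ K := by linarith
  set T : ℝ := K * (1 / 2 : ℝ)⁻¹ ^ N * (1 + V) + Real.exp (K * (1 / 2 : ℝ)⁻¹ ^ (1 : ℝ)) with hT
  have hT0 : 0 ≤ T := by rw [hT]; positivity
  have hTe : T ≤ Real.exp T := by linarith [Real.add_one_le_exp T]
  refine ⟨Real.exp T, (Real.exp_pos _).le, ?_⟩
  intro δ al p th S y₀ x₀ hy hx h hh hXh hM
  have hc2 : (0 : ℝ) < 1 / 2 := by norm_num
  have S' := sw_sh S (y₀ := y₀) (x₀ := x₀) hc2 (by linarith) (by linarith)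
  have e1 : (1 / 2 : ℝ) * (2 * h) = h := by ring
  have hM' : MV b F al th X om e V y₀ x₀ (1 / 2 * (2 * h)) := by rw [e1]; exact hM
  obtain ⟨m1, m2⟩ := (mv_sh hc2).1 hM'
  have key : ∀ t : ℝ, h / 2 ≤ t → t ≤ h →
      |(al (pt y₀ x₀ t)).im| ≤ T ∧ ‖al (pt y₀ x₀ t) - al (pt y₀ x₀ h)‖ ≤ T ∧
        ‖p (pt y₀ x₀ t)‖ ≤ Real.exp T := by
    intro t ht1 ht2
    have ht0 : 0 < t := by linarith
    have a1 := H S'.sq (2 * h) (by positivity) (by nlinarith) m1 (1 / 2) (by norm_num) (by norm_num)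
      (ax (2 * t)) (by simp [ax]; linarith) (by simp [ax]; linarith)
      (by rw [Vale.Agent.P097.H103.T.norm_ax (by positivity)]; nlinarith)
    have e2 : sh y₀ x₀ (1 / 2) (ax (2 * t)) = pt y₀ x₀ t := by
      rw [sh_ax, pt_tr, show (1 / 2 : ℝ) * (2 * t) = t by ring]
    have e3 : sh y₀ x₀ (1 / 2) (ax (2 * h)) = pt y₀ x₀ h := by
      rw [sh_ax, pt_tr, show (1 / 2 : ℝ) * (2 * h) = h by ring]
    simp only [Function.comp, e2, e3] at a1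
    have hle : K * (1 / 2 : ℝ)⁻¹ ^ N * (1 + |Vq F (al ∘ sh y₀ x₀ (1 / 2)) (th ∘ sh y₀ x₀ (1 / 2))
        (2 * h)|) + Real.exp (K * (1 / 2 : ℝ)⁻¹ ^ (1 : ℝ)) ≤ T := by
      rw [hT]
      have : 0 ≤ K * (1 / 2 : ℝ)⁻¹ ^ N := by positivity
      have := mul_le_mul_of_nonneg_left (add_le_add_right m2 1) this
      linarith
    exact ⟨a1.1.trans hle, a1.2.1.trans hle, a1.2.2.trans (Real.exp_le_exp.2 hle)⟩
  refine ⟨fun t h1 h2 => ((key t h1 h2).2.1).trans hTe, (key h (by linarith) le_rfl).2.2,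
    ((key h (by linarith) le_rfl).1).trans hTe⟩

/-- **drift along the ancestors** -/
theorem drift {Λ b : ℝ} {F q : ℂ → ℂ} (hc : Cv Λ b F q) (hg : Grw b F q) {X om e V : ℝ}
    (hX : 2 ≤ X) (hom : 0 < om) (hom1 : om ≤ 1) (he : 0 < e) (hV : 0 ≤ V) :
    ∃ C : ℝ, 0 ≤ C ∧ ∀ {δ : ℝ} {al p th : ℂ × ℂ → ℂ}, SW Λ b F q δ 1 al p th →
      ∀ y₀ x₀ r : ℝ, |y₀| ≤ 1 / 8 → |x₀| ≤ 1 / 8 → 0 < r →
      (∀ h : ℝ, r ≤ h → (X + 5) * h ≤ 1 / 2 → MV b F al th X om e V y₀ x₀ h) →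
      ∀ h : ℝ, r ≤ h → (X + 5) * h ≤ 1 / 2 →
        ‖al (pt y₀ x₀ r) - al (pt y₀ x₀ h)‖ ≤ C * (1 + 2 * Real.log (h / r)) ∧
        ‖p (pt y₀ x₀ h)‖ ≤ C ∧ |(al (pt y₀ x₀ h)).im| ≤ C := by
  obtain ⟨C, hC, H⟩ := octave hc hg hX hom hom1 he hV
  refine ⟨C, hC, ?_⟩
  intro δ al p th S y₀ x₀ r hy hx hr hM h hrh hXh
  have key : ∀ n : ℕ, ∀ h : ℝ, r ≤ h → h ≤ 2 ^ n * r → (X + 5) * h ≤ 1 / 2 →
      ‖al (pt y₀ x₀ r) - al (pt y₀ x₀ h)‖ ≤ C * n := by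
    intro n
    induction n with
    | zero =>
      intro h h1 h2 h3
      have : h = r := by
        rw [pow_zero, one_mul] at h2
        linarith
      rw [this]; simp
    | succ n ih =>
      intro h h1 h2 h3
      set t := max (h / 2) r with ht
      have t1 : h / 2 ≤ t := le_max_left _ _
      have t2 : r ≤ t := le_max_right _ _
      have t3 : t ≤ h := max_le (by linarith) h1
      have t4 : t ≤ 2 ^ n * r := by
        apply max_le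
        · rw [pow_succ] at h2; linarith
        · have : (1 : ℝ) ≤ 2 ^ n := one_le_pow₀ (by norm_num)
          nlinarith
      have a1 := ih t t2 t4 (by nlinarith)
      have a2 := (H S y₀ x₀ hy hx h (by linarith) h3 (hM h h1 h3)).1 t t1 t3
      have e : al (pt y₀ x₀ r) - al (pt y₀ x₀ h) = (al (pt y₀ x₀ r) - al (pt y₀ x₀ t)) +
          (al (pt y₀ x₀ t) - al (pt y₀ x₀ h)) := by ring
      rw [e]
      refine (norm_add_le _ _).trans ?_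
      push_cast
      linarith
  have hq : 1 ≤ h / r := by rw [le_div_iff₀ hr]; linarith
  have hl0 : 0 ≤ Real.log (h / r) := Real.log_nonneg hq
  set n := ⌈2 * Real.log (h / r)⌉₊ with hn
  have n1 : 2 * Real.log (h / r) ≤ n := Nat.le_ceil _
  have n2 : (n : ℝ) < 2 * Real.log (h / r) + 1 := Nat.ceil_lt_add_one (by positivity)
  have n3 : h ≤ 2 ^ n * r := by
    rw [← div_le_iff₀ hr]
    have l2 : (1 : ℝ) / 2 ≤ Real.log 2 := by
      have := Real.log_two_gt_d9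
      linarith
    rw [← Real.log_le_log_iff (by positivity) (by positivity), Real.log_pow]
    have : (n : ℝ) * (1 / 2) ≤ n * Real.log 2 := mul_le_mul_of_nonneg_left l2 (Nat.cast_nonneg n)
    linarith
  refine ⟨(key n h hrh n3 hXh).trans ?_, (H S y₀ x₀ hy hx h (by linarith) hXh (hM h hrh hXh)).2⟩
  exact mul_le_mul_of_nonneg_left (by linarith) hC

/-- **the unit scale** -/
theorem unit_bd {Λ H : ℝ} {F q : ℂ → ℂ} {b m : ℝ} {Ψ : ℂ → ℂ} {Mj Mk B : Set (ℂ × ℂ)}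
    {A : Set ℝ} {P : ℝ → ℂ} {c k : ℝ → ℝ} {K y₀ u₀ σ s : ℝ} {al p th : ℂ × ℂ → ℂ} {J : ℂ → ℂ}
    (W : A5.W5 Λ H F q b m Ψ Mj Mk B A P c k K y₀ u₀ σ s al p th J) {y u : ℕ → ℝ}
    (hSq : A5.Sq A y₀ u₀ y u) {g : ℕ → ℝ} {V₁ : ℝ} (hL : A5.LNb F q P c u₀ σ s al p th y u g V₁)
    {S : ℕ → ℝ} (hS : ∀ n, 0 < S n ∧ S n ≤ g n) (hS0 : Tendsto S atTop (𝓝 0))
    {𝒰 : Ultrafilter ℕ} (hU : (𝒰 : Filter ℕ) ≤ atTop) :
    ∃ N : ℕ → ℤ, ∀ δ : ℝ, δ < s - k u₀ → ∀ Z : Set (ℂ × ℂ), IsCompact Z → Z ⊆ H226.W.Wd δ →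
      ∃ M : ℝ, 0 ≤ M ∧ ∀ᶠ n in (𝒰 : Filter ℕ), ∀ z ∈ Z,
        ‖al (Sx Ψ (y n - (P (u n)).re) (u n) (S n) z) - 2 * Real.pi * N n‖ ≤ M ∧
        ‖p (Sx Ψ (y n - (P (u n)).re) (u n) (S n) z)‖ ≤ M := by
  obtain ⟨N, al', p', hal', hp', t1, t2⟩ := hL.hon S hS 𝒰 hU
  refine ⟨N, ?_⟩
  intro δ hδ Z hZ hZs
  set f : ℂ × ℂ → ℂ × ℂ := Tl (-(σ - k u₀)) with hf
  have hfc : Continuous f := continuous_Tl _
  have hopen : IsOpen (A5.Wd (s - σ)) := by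
    have c1 : Continuous (fun z : ℂ × ℂ => z.2.im) := Complex.continuous_im.comp continuous_snd
    have c2 : Continuous (fun z : ℂ × ℂ => z.1.im) := Complex.continuous_im.comp continuous_fst
    exact (isOpen_lt continuous_const c1).inter (isOpen_lt c2 (continuous_const.mul c1))
  have hfZ : f '' Z ⊆ A5.Wd (s - σ) := by
    rintro _ ⟨z, hz, rfl⟩
    obtain ⟨h1, h2⟩ := hZs hz
    refine ⟨h1, ?_⟩
    have e : (f z).1.im = z.1.im - (σ - k u₀) * z.2.im := by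
      simp [hf, Tl]
      ring
    have e' : (f z).2 = z.2 := rfl
    rw [e, e']
    nlinarith
  obtain ⟨η, hη, hηs⟩ := (hZ.image hfc).exists_cthickening_subset_open hopen hfZ
  set K' := cthickening η (f '' Z) with hK'
  have hK'c : IsCompact K' := (hZ.image hfc).cthickening
  obtain ⟨d, hd, r₀, hr₀, hf1⟩ := fwd_close W.Uk W.u0 σ hZ (fun z hz => (hZs hz).1) hη
  obtain ⟨M₁, hM₁⟩ := hK'c.exists_bound_of_continuousOn (hal'.continuousOn.mono hηs)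
  obtain ⟨M₂, hM₂⟩ := hK'c.exists_bound_of_continuousOn (hp'.continuousOn.mono hηs)
  have v1 := (tendstoLocallyUniformlyOn_iff_forall_isCompact hopen).1 t1 K' hηs hK'c
  have v2 := (tendstoLocallyUniformlyOn_iff_forall_isCompact hopen).1 t2 K' hηs hK'c
  rw [Metric.tendstoUniformlyOn_iff] at v1 v2
  have hu1 : ∀ᶠ n in (𝒰 : Filter ℕ), |u n - u₀| < d := by
    have := hU (Metric.tendsto_nhds.1 hSq.ut d hd)
    filter_upwards [this] with n hn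
    rwa [Real.dist_eq] at hn
  have hr1 : ∀ᶠ n in (𝒰 : Filter ℕ), S n < r₀ := hU (hS0.eventually (gt_mem_nhds hr₀))
  refine ⟨|M₁| + |M₂| + 1, by positivity, ?_⟩
  filter_upwards [v1 1 one_pos, v2 1 one_pos, hu1, hr1] with n w1 w2 w3 w4 z hz
  have q := hf1 (u n) (hSq.uA n) w3 (y n) (y n - (P (u n)).re) (u n) (S n) (hS n).1 w4
    (by rw [sub_self, abs_zero]; exact (mul_pos hd (hS n).1).le)
    (by rw [sub_self, abs_zero]; exact (mul_pos hd (hS n).1).le) z hz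
  have hzK : Zi Ψ (P (u n)).im (c u₀) σ (y n) (u n) (S n) (y n - (P (u n)).re) (u n) z ∈ K' := by
    apply mem_cthickening_of_dist_le _ (f z) η _ (mem_image_of_mem f hz)
    rw [dist_eq_norm]
    exact q.2
  have x1 := w1 _ hzK
  have x2 := w2 _ hzK
  rw [dist_eq_norm] at x1 x2
  rw [q.1] at x1 x2
  have y1 := hM₁ _ hzK
  have y2 := hM₂ _ hzK
  constructor
  · have e : al (Sx Ψ (y n - (P (u n)).re) (u n) (S n) z) - 2 * Real.pi * N n =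
        al' (Zi Ψ (P (u n)).im (c u₀) σ (y n) (u n) (S n) (y n - (P (u n)).re) (u n) z) -
        (al' (Zi Ψ (P (u n)).im (c u₀) σ (y n) (u n) (S n) (y n - (P (u n)).re) (u n) z) -
          (al (Sx Ψ (y n - (P (u n)).re) (u n) (S n) z) - 2 * Real.pi * N n)) := by ring
    rw [e]
    refine (norm_sub_le _ _).trans ?_
    have := le_abs_self M₁
    have := abs_nonneg M₂
    linarith
  · have e : p (Sx Ψ (y n - (P (u n)).re) (u n) (S n) z) =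
        p' (Zi Ψ (P (u n)).im (c u₀) σ (y n) (u n) (S n) (y n - (P (u n)).re) (u n) z) -
        (p' (Zi Ψ (P (u n)).im (c u₀) σ (y n) (u n) (S n) (y n - (P (u n)).re) (u n) z) -
          p (Sx Ψ (y n - (P (u n)).re) (u n) (S n) z)) := by ring
    rw [e]
    refine (norm_sub_le _ _).trans ?_
    have := le_abs_self M₂
    have := abs_nonneg M₁
    linarith

/-- hypotheses at the picks `(y', x', r')` in the straight world `(x, v, S)` -/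
def PkH (Λ H : ℝ) (F q : ℂ → ℂ) (X om e V δ : ℝ) (al p th : ℂ × ℂ → ℂ) (y' x' r' : ℝ) : Prop :=
  SW Λ H F q δ 1 al p th ∧ |y'| ≤ 1 / 8 ∧ |x'| ≤ 1 / 8 ∧ 0 < r' ∧
    ∀ h : ℝ, r' ≤ h → (X + 5) * h ≤ 1 / 2 → MV H F al th X om e V y' x' h

/-- **crude bound at the picks** -/
theorem pick_in {Λ H : ℝ} {F q : ℂ → ℂ} {b m : ℝ} {Ψ : ℂ → ℂ} {Mj Mk B : Set (ℂ × ℂ)}
    {A : Set ℝ} {P : ℝ → ℂ} {c k : ℝ → ℝ} {K y₀ u₀ σ s : ℝ} {al p th : ℂ × ℂ → ℂ} {J : ℂ → ℂ}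
    (W : A5.W5 Λ H F q b m Ψ Mj Mk B A P c k K y₀ u₀ σ s al p th J) (hgr : Grw H F q) {y u : ℕ → ℝ}
    (hSq : A5.Sq A y₀ u₀ y u) {g : ℕ → ℝ} {V₁ : ℝ} (hL : A5.LNb F q P c u₀ σ s al p th y u g V₁)
    {S : ℕ → ℝ} (hS : ∀ n, 0 < S n ∧ S n ≤ g n) (hS0 : Tendsto S atTop (𝓝 0))
    {𝒰 : Ultrafilter ℕ} (hU : (𝒰 : Filter ℕ) ≤ atTop) {X om e V : ℝ} (hX : 2 ≤ X) (hom : 0 < om)
    (hom1 : om ≤ 1) (he : 0 < e) (hV : 0 ≤ V) {δ : ℝ} (hδ0 : 0 < δ) (hδ : δ < s - k u₀)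
    {Z : Set (ℂ × ℂ)} (hZ : IsCompact Z) (hZs : Z ⊆ H226.W.Wd δ) {y' x' r' : ℕ → ℝ}
    (hP : ∀ᶠ n in (𝒰 : Filter ℕ), PkH Λ H F q X om e V δ
      (al ∘ Sx Ψ (y n - (P (u n)).re) (u n) (S n)) (p ∘ Sx Ψ (y n - (P (u n)).re) (u n) (S n))
      (th ∘ Sx Ψ (y n - (P (u n)).re) (u n) (S n)) (y' n) (x' n) (r' n))
    (hr : Tendsto r' (𝒰 : Filter ℕ) (𝓝 0)) :
    ∃ Aₙ : ℕ → ℝ, (∀ n, 0 ≤ Aₙ n) ∧ Tendsto (fun n => r' n * Aₙ n) (𝒰 : Filter ℕ) (𝓝 0) ∧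
      ∀ᶠ n in (𝒰 : Filter ℕ), ∀ z ∈ Z,
        ‖LL (al ∘ Sx Ψ (y n - (P (u n)).re) (u n) (S n)) (p ∘ Sx Ψ (y n - (P (u n)).re) (u n) (S n)) z -
          LL (al ∘ Sx Ψ (y n - (P (u n)).re) (u n) (S n)) (p ∘ Sx Ψ (y n - (P (u n)).re) (u n) (S n))
            (pt (y' n) (x' n) (r' n))‖ ≤ Real.exp (Aₙ n) := by
  obtain ⟨C, hC, H1⟩ := drift W.crv.cv hgr hX hom hom1 he hV
  obtain ⟨N, H2⟩ := unit_bd W hSq hL hS hS0 hU
  -- the ancestors at the unit scale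
  set h₁ : ℝ := 1 / (2 * (X + 5)) with hh₁
  have hh0 : 0 < h₁ := by rw [hh₁]; positivity
  have hh1 : (X + 5) * h₁ ≤ 1 / 2 := by
    rw [hh₁]
    have : (X + 5) * (1 / (2 * (X + 5))) = 1 / 2 := by field_simp
    linarith
  have hh2 : h₁ ≤ 1 := by
    rw [hh₁, div_le_one (by positivity)]; linarith
  set Z₂ : Set (ℂ × ℂ) := (fun t : ℝ × ℝ => pt t.1 t.2 h₁) '' (Icc (-(1 / 8)) (1 / 8) ×ˢ
    Icc (-(1 / 8)) (1 / 8)) with hZ₂
  have hZ₂c : IsCompact Z₂ := by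
    apply IsCompact.image (isCompact_Icc.prod isCompact_Icc)
    unfold pt
    fun_prop
  have hZ₂s : Z₂ ⊆ H226.W.Wd δ := by
    rintro _ ⟨t, ht, rfl⟩
    refine ⟨by simp only [pt_snd_im]; exact hh0, ?_⟩
    simp only [pt_fst_im, pt_snd_im]
    have : 0 < δ * h₁ := by positivity
    linarith
  obtain ⟨M₁, hM₁, H3⟩ := H2 δ hδ Z hZ hZs
  obtain ⟨M₂, hM₂, H4⟩ := H2 δ hδ Z₂ hZ₂c hZ₂s
  set M : ℝ := M₁ + M₂ + 3 * C with hM
  have hM0 : 0 ≤ M := by rw [hM]; positivity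
  refine ⟨fun n => M * (1 + |Real.log (r' n)|), fun n => by positivity, ?_, ?_⟩
  · have t1 : Tendsto (fun n => r' n * Real.log (r' n)) (𝒰 : Filter ℕ) (𝓝 0) := by
      have h9 := (Real.continuous_mul_log.tendsto 0).comp hr
      rw [zero_mul] at h9
      exact h9
    have t2 : Tendsto (fun n => M * (r' n + |r' n * Real.log (r' n)|)) (𝒰 : Filter ℕ) (𝓝 0) := by
      have := (hr.add t1.abs).const_mul M
      simpa using this
    refine t2.congr' ?_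
    filter_upwards [hP] with n hn
    rw [abs_mul, abs_of_pos hn.2.2.2.1]
    ring
  · have hr1 : ∀ᶠ n in (𝒰 : Filter ℕ), r' n < h₁ := hr.eventually (gt_mem_nhds hh0)
    filter_upwards [H3, H4, hP, hr1] with n n1 n2 n3 n4 z hz
    obtain ⟨sw, hy, hx, hr0, mv⟩ := n3
    have hz₂ : pt (y' n) (x' n) h₁ ∈ Z₂ := ⟨(y' n, x' n), ⟨abs_le.1 hy, abs_le.1 hx⟩, rfl⟩
    obtain ⟨a1, a2⟩ := n1 z hz
    obtain ⟨a3, a4⟩ := n2 _ hz₂
    obtain ⟨a5, -, -⟩ := H1 sw (y' n) (x' n) (r' n) hy hx hr0 mv h₁ n4.le hh1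
    obtain ⟨-, a6, -⟩ := H1 sw (y' n) (x' n) (r' n) hy hx hr0 mv (r' n) le_rfl (by nlinarith)
    simp only [Function.comp] at a5 a6
    have hlog : Real.log (h₁ / r' n) ≤ |Real.log (r' n)| := by
      rw [Real.log_div hh0.ne' hr0.ne']
      have h5 : Real.log h₁ ≤ 0 := Real.log_nonpos hh0.le hh2
      have h6 := neg_le_abs (Real.log (r' n))
      linarith
    have hlog0 := abs_nonneg (Real.log (r' n))
    have hb : C * (1 + 2 * Real.log (h₁ / r' n)) ≤ C * (1 + 2 * |Real.log (r' n)|) :=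
      mul_le_mul_of_nonneg_left (by linarith) hC
    have tot : M₁ + M₂ + C + C * (1 + 2 * |Real.log (r' n)|) ≤
        Real.exp (M * (1 + |Real.log (r' n)|)) := by
      have h7 := Real.add_one_le_exp (M * (1 + |Real.log (r' n)|))
      have h8 : M₁ + M₂ + C + C * (1 + 2 * |Real.log (r' n)|) ≤ M * (1 + |Real.log (r' n)|) := by
        rw [hM]; nlinarith
      linarith
    refine le_trans ?_ tot
    rw [LL, LL, Prod.mk_sub_mk, Prod.norm_mk]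
    apply max_le
    · simp only [Function.comp]
      have e : al (Sx Ψ (y n - (P (u n)).re) (u n) (S n) z) -
          al (Sx Ψ (y n - (P (u n)).re) (u n) (S n) (pt (y' n) (x' n) (r' n))) =
          (al (Sx Ψ (y n - (P (u n)).re) (u n) (S n) z) - 2 * Real.pi * N n) -
          (al (Sx Ψ (y n - (P (u n)).re) (u n) (S n) (pt (y' n) (x' n) h₁)) - 2 * Real.pi * N n) -
          (al (Sx Ψ (y n - (P (u n)).re) (u n) (S n) (pt (y' n) (x' n) (r' n))) -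
            al (Sx Ψ (y n - (P (u n)).re) (u n) (S n) (pt (y' n) (x' n) h₁))) := by ring
      rw [e]
      refine (norm_sub_le _ _).trans ((add_le_add (norm_sub_le _ _) le_rfl).trans ?_)
      linarith
    · simp only [Function.comp]
      refine (norm_sub_le _ _).trans ?_
      have : 0 ≤ C * (1 + 2 * |Real.log (r' n)|) := by positivity
      linarith

/-- **the lines at the pick**, mod `2π` -/
theorem pick_c {Λ H : ℝ} {F q : ℂ → ℂ} (hc : Cv Λ H F q) (hgr : Grw H F q) {X om e V : ℝ}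
    (hX : 2 ≤ X) (hom : 0 < om) (hom1 : om ≤ 1) (he : 0 < e) (hV : 0 ≤ V) :
    ∃ C : ℝ, 0 ≤ C ∧ ∀ {δ : ℝ} {al p th : ℂ × ℂ → ℂ} {y' x' r' : ℝ},
      PkH Λ H F q X om e V δ al p th y' x' r' → (X + 5) * r' ≤ 1 / 2 →
      (∃ M : ℤ, ‖al (pt y' x' r') - 2 * Real.pi * M‖ ≤ C) ∧ ‖p (pt y' x' r')‖ ≤ C ∧
        |(al (pt y' x' r')).im| ≤ C := by
  obtain ⟨C, hC, H1⟩ := drift hc hgr hX hom hom1 he hV
  refine ⟨C + 2 * Real.pi, by positivity, ?_⟩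
  intro δ al p th y' x' r' hP hr
  obtain ⟨sw, hy, hx, hr0, mv⟩ := hP
  obtain ⟨-, a6, a7⟩ := H1 sw y' x' r' hy hx hr0 mv r' le_rfl hr
  have hpi := Real.pi_pos
  refine ⟨⟨⌊(al (pt y' x' r')).re / (2 * Real.pi)⌋, ?_⟩, by linarith, by linarith⟩
  set a := al (pt y' x' r') with ha
  set M := ⌊a.re / (2 * Real.pi)⌋ with hM
  have m1 : (M : ℝ) ≤ a.re / (2 * Real.pi) := Int.floor_le _
  have m2 : a.re / (2 * Real.pi) < M + 1 := Int.lt_floor_add_one _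
  rw [le_div_iff₀ (by positivity)] at m1
  rw [div_lt_iff₀ (by positivity)] at m2
  refine (Complex.norm_le_abs_re_add_abs_im _).trans ?_
  have e1 : (a - 2 * Real.pi * M).re = a.re - 2 * Real.pi * M := by simp
  have e2 : (a - 2 * Real.pi * M).im = a.im := by simp
  rw [e1, e2]
  have : |a.re - 2 * Real.pi * M| ≤ 2 * Real.pi := by
    rw [abs_le]; constructor <;> nlinarith
  linarith

end Vale.Agent.P097.H920.PickIn
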