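import Vale.Agent.P097.H509.St.Defs

/-!
# P097 / block (T): sequence form of `TdSt` (frozen v3)

At a sequence of picks with `r n → 0`, `r n * A n → 0`, `r n * log (E n)⁻¹ → 0` the normalised lines
are bounded on the compacts of the wide tube at all scales `R * r n`, `R ≥ 1`, with growth
`√R (1 + log R)`.
-/

set_option linter.all false

open Complex Metric Filter Topology Set
open scoped ComplexConjugate

namespace Vale.Agent.P097.H920.Grow

open Vale.Agent.P097.TC Vale.Agent.P097.H226.W Vale.Agent.P097.H845.St Vale.Agent.P097.H509.St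

/-- (G) at the ancestor of scale `R * r` -/
theorem gg_up {L : ℂ × ℂ → ℂ × ℂ} {X om C₀ E₀ y₀ x₀ r R : ℝ} (h : GG L X om C₀ E₀ y₀ x₀ r)
    (hC : 0 ≤ C₀) (hE : 0 ≤ E₀) (hr : 0 < r) (hR : 1 ≤ R) :
    GG L X om C₀ (Real.sqrt R * E₀) y₀ x₀ (R * r) := by
  intro y x ρ hy hx hρ hρ'
  have h1 := h y x ρ hy hx hρ hρ'
  have hR0 : 0 < R := lt_of_lt_of_le one_pos hR
  have hrR : r ≤ R * r := by nlinarith
  set D := |y - y₀| + |x - x₀| + ρ + r with hD
  set D' := |y - y₀| + |x - x₀| + ρ + R * r with hD'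
  have hD0 : 0 < D := by
    have := abs_nonneg (y - y₀)
    have := abs_nonneg (x - x₀)
    linarith
  have hDD : D ≤ D' := by linarith
  have e1 : Real.sqrt (D / r) ≤ Real.sqrt R * Real.sqrt (D' / (R * r)) := by
    rw [← Real.sqrt_mul hR0.le]
    apply Real.sqrt_le_sqrt
    have : R * (D' / (R * r)) = D' / r := by field_simp
    rw [this]
    exact div_le_div_of_nonneg_right hDD hr.le
  have e2 : (D / ρ) ^ 2 ≤ (D' / ρ) ^ 2 := by
    apply pow_le_pow_left₀ (by positivity)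
    exact div_le_div_of_nonneg_right hDD hρ.le
  refine h1.trans ?_
  have e3 : C₀ * E₀ * Real.sqrt (D / r) ≤ C₀ * (Real.sqrt R * E₀) * Real.sqrt (D' / (R * r)) := by
    calc C₀ * E₀ * Real.sqrt (D / r) ≤ C₀ * E₀ * (Real.sqrt R * Real.sqrt (D' / (R * r))) :=
          mul_le_mul_of_nonneg_left e1 (by positivity)
      _ = _ := by ring
  exact mul_le_mul e3 e2 (by positivity) (by positivity)

theorem tr_smul_pt (y x r t : ℝ) : tr y x ((r : ℂ) • pt 0 0 t) = pt y x (r * t) := by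
  simp only [tr, pt, Prod.smul_mk, smul_eq_mul, Complex.ofReal_mul, Complex.ofReal_zero, zero_sub,
    zero_add]
  refine Prod.ext ?_ ?_ <;> simp <;> ring

/-- hypotheses at one pick -/
structure PH (Λ b : ℝ) (F q : ℂ → ℂ) (Xp op X om e V C₀ δ : ℝ) (Z : Set (ℂ × ℂ))
    (al p th : ℂ × ℂ → ℂ) (y x r E A : ℝ) : Prop where
  sw : SW Λ b F q δ 1 al p th
  y8 : |y| ≤ 1 / 8
  x8 : |x| ≤ 1 / 8
  r0 : 0 < r
  E0 : 0 < E
  E1 : E ≤ 1
  A0 : 0 ≤ A
  mv : ∀ h : ℝ, r ≤ h → (X + 5) * h ≤ 1 / 2 → MV b F al th X om e V y x h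
  gg : GG (LL al p) Xp op C₀ E y x r
  hZ : ∀ z ∈ Z, ‖LL al p z - LL al p (pt y x r)‖ ≤ Real.exp A

/-- **growth** : the lines on the compacts of the wide tube at all scales `R * r`, `R ≥ 1` -/
theorem grow_seq (hT : TdSt) {Λ b : ℝ} {F q : ℂ → ℂ} (hc : Cv Λ b F q) (hg : Grw b F q)
    {Xp op X om e V C₀ δ : ℝ} (hXp : 2 ≤ Xp) (hop : 0 < op) (hop' : op ≤ 1 / 2) (hX : Xp ≤ X)
    (hom : 0 < om) (hom' : om ≤ op) (he : 0 < e) (hV : 0 ≤ V) (hC₀ : 0 < C₀) (hδ : 0 < δ)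
    {W : Set (ℂ × ℂ)} (hW : IsCompact W) (hWs : W ⊆ Wd δ) :
    ∃ K : ℝ, 0 ≤ K ∧ ∃ Z : Set (ℂ × ℂ), IsCompact Z ∧ Z ⊆ Bx 1 ∩ Wd δ ∧
    ∀ (l : Filter ℕ) (al p th : ℕ → ℂ × ℂ → ℂ) (y x r E A : ℕ → ℝ),
      (∀ᶠ n in l, PH Λ b F q Xp op X om e V C₀ δ Z (al n) (p n) (th n) (y n) (x n) (r n) (E n)
        (A n)) →
      Tendsto r l (𝓝 0) → Tendsto (fun n => r n * A n) l (𝓝 0) →
      Tendsto (fun n => r n * Real.log (E n)⁻¹) l (𝓝 0) →
      ∀ R : ℝ, 1 ≤ R → ∀ᶠ n in l, ∀ z ∈ W, tr (y n) (x n) (((R * r n : ℝ) : ℂ) • z) ∈ Bx 1 ∧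
        ‖LL (al n) (p n) (tr (y n) (x n) (((R * r n : ℝ) : ℂ) • z)) -
          LL (al n) (p n) (pt (y n) (x n) (r n))‖ ≤
            K * Real.sqrt R * (1 + Real.log R) * E n := by
  obtain ⟨C, hC, τ, hτ, hτ1, Z, hZc, hZs, H⟩ :=
    hT hc hg Xp op X om e V C₀ δ hXp hop hop' hX hom hom' he hV hC₀ hδ W hW hWs
  refine ⟨Real.exp (C + 1), (Real.exp_pos _).le, Z, hZc, hZs, ?_⟩
  intro l al p th y x r E A hP hr hrA hrE R hR
  have hR0 : 0 < R := lt_of_lt_of_le one_pos hR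
  have t1 : Tendsto (fun n => R * r n) l (𝓝 0) := by
    have := hr.const_mul R
    rwa [mul_zero] at this
  have t2 : Tendsto (fun n => C * R * (r n * A n + r n * Real.log (E n)⁻¹)) l (𝓝 0) := by
    have h1 := (hrA.add hrE).const_mul (C * R)
    simpa using h1
  filter_upwards [hP, t1.eventually (gt_mem_nhds hτ), t2.eventually (gt_mem_nhds one_pos)]
    with n hn hn2 hn3 z hz
  have hrn := hn.r0
  have hEn := hn.E0
  have hrR : r n ≤ R * r n := by nlinarith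
  have h5 := H hn.sw (y n) (x n) (r n) hn.y8 hn.x8 hrn (by linarith) hn.mv (E n) hEn hn.E1 hn.gg
    (A n) hn.A0 hn.hZ (R * r n) hrR hn2.le z hz
  refine ⟨h5.1, h5.2.trans ?_⟩
  have hq : R * r n / r n = R := by field_simp
  rw [hq]
  have h6 : max (Real.log (E n)⁻¹) 0 = Real.log (E n)⁻¹ :=
    max_eq_left (Real.log_nonneg ((one_le_inv₀ hEn).2 hn.E1))
  have h7 : C + C * (R * r n) * (A n + max (Real.log (E n)⁻¹) 0) ≤ C + 1 := by
    rw [h6]
    have h9 : C * (R * r n) * (A n + Real.log (E n)⁻¹) =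
        C * R * (r n * A n + r n * Real.log (E n)⁻¹) := by ring
    linarith
  have hl : 0 ≤ 1 + Real.log R := by
    have := Real.log_nonneg hR
    linarith
  calc E n * Real.sqrt R * (1 + Real.log R) * Real.exp (C + C * (R * r n) *
        (A n + max (Real.log (E n)⁻¹) 0))
      ≤ E n * Real.sqrt R * (1 + Real.log R) * Real.exp (C + 1) :=
        mul_le_mul_of_nonneg_left (Real.exp_le_exp.2 h7) (by positivity)
    _ = Real.exp (C + 1) * Real.sqrt R * (1 + Real.log R) * E n := by ring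

end Vale.Agent.P097.H920.Grow
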