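import Vale.Agent.P097.H920.St.PtSt
import Vale.Agent.P097.H531.ST.Sel
import Vale.Agent.P097.H146.TdSt

/-!
# P097 / block (T) is closed: `A5.PT`
-/

namespace Vale.Agent.P097.H920.PtSt

/-- **block (T)** -/
theorem pt : A5.PT :=
  pt_of_st H531.ST.sel_st (H146S.tdst_of H19.lat)

end Vale.Agent.P097.H920.PtSt
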