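import Vale.Agent.P097.H839.Tan.TSt
import Vale.Agent.P097.H217.St.SelIn
import Vale.Agent.P097.H133.St.Lab
import Vale.Agent.P097.H109.NCst
import Vale.Agent.P097.H190.Seq4
import Vale.Agent.P097.H560.ExpU
import Vale.Agent.P097.H21.W.Brg
import Vale.Agent.P097.H920.St.Grow
import Vale.Agent.P097.H920.St.PickIn

/-!
# P097 / block (T): `SelSt → TdSt → A5.PT`
-/

set_option linter.all false

open Complex Metric Filter Topology Set MeasureTheory
open scoped ComplexConjugate ENNReal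

namespace Vale.Agent.P097.H920.PtSt

open Vale.Agent.P097.TC Vale.Agent.P097.H226.W Vale.Agent.P097.H845.St Vale.Agent.P097.H509.St
open Vale.Agent.P097.H85 Vale.Agent.P097.H929 Vale.Agent.P097.H560
open Vale.Agent.P097.H920.Grow Vale.Agent.P097.H920.PickIn Vale.Agent.P097.H315

theorem pow_est {R : ℝ} (hR : 1 ≤ R) :
    Real.sqrt R * (1 + Real.log R) ≤ 5 * R ^ (3 / 4 : ℝ) := by
  have hR0 : 0 < R := lt_of_lt_of_le one_pos hR
  have h1 : Real.log R ≤ R ^ (1 / 4 : ℝ) / (1 / 4) := Real.log_le_rpow_div hR0.le (by norm_num)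
  have h2 : 1 ≤ R ^ (1 / 4 : ℝ) := Real.one_le_rpow hR (by norm_num)
  have h3 : 1 + Real.log R ≤ 5 * R ^ (1 / 4 : ℝ) := by
    have : R ^ (1 / 4 : ℝ) / (1 / 4) = 4 * R ^ (1 / 4 : ℝ) := by ring
    linarith
  have h4 : Real.sqrt R = R ^ (1 / 2 : ℝ) := Real.sqrt_eq_rpow R
  rw [h4]
  calc R ^ (1 / 2 : ℝ) * (1 + Real.log R) ≤ R ^ (1 / 2 : ℝ) * (5 * R ^ (1 / 4 : ℝ)) :=
        mul_le_mul_of_nonneg_left h3 (by positivity)
    _ = 5 * (R ^ (1 / 2 : ℝ) * R ^ (1 / 4 : ℝ)) := by ring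
    _ = 5 * R ^ (3 / 4 : ℝ) := by
        rw [← Real.rpow_add hR0]; norm_num

/-- the unit slice of the inner cone -/
def Kc (s M : ℝ) : Set (ℂ × ℂ) := {z | z.2.im = 1 ∧ z.1.im ≤ s ∧ ‖z‖ ≤ M}

theorem isCompact_Kc (s M : ℝ) : IsCompact (Kc s M) := by
  have c1 : Continuous (fun z : ℂ × ℂ => z.2.im) := Complex.continuous_im.comp continuous_snd
  have c2 : Continuous (fun z : ℂ × ℂ => z.1.im) := Complex.continuous_im.comp continuous_fst
  have hc : IsClosed (Kc s M) :=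
    (isClosed_eq c1 continuous_const).inter ((isClosed_le c2 continuous_const).inter
      (isClosed_le continuous_norm continuous_const))
  refine IsCompact.of_isClosed_subset (isCompact_closedBall (0 : ℂ × ℂ) M) hc ?_
  intro z hz
  rw [mem_closedBall, dist_zero_right]
  exact hz.2.2

theorem Kc_sub {s M δ : ℝ} (h : s < δ) : Kc s M ⊆ H226.W.Wd δ := by
  intro z hz
  obtain ⟨h1, h2, -⟩ := hz
  refine ⟨by rw [h1]; exact one_pos, by rw [h1, mul_one]; linarith⟩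

section

variable {Λ H : ℝ} {F q : ℂ → ℂ} {b m : ℝ} {Ψ : ℂ → ℂ} {Mj Mk B : Set (ℂ × ℂ)}
  {A : Set ℝ} {P : ℝ → ℂ} {c k : ℝ → ℝ} {K y₀ u₀ σ s : ℝ} {al p th : ℂ × ℂ → ℂ} {J : ℂ → ℂ}

/-- **the end** -/
theorem end_of_picks (hTd : TdSt) (W : A5.W5 Λ H F q b m Ψ Mj Mk B A P c k K y₀ u₀ σ s al p th J)
    {y u g : ℕ → ℝ} {V₁ : ℝ} (hSq : A5.Sq A y₀ u₀ y u)
    (hL : A5.LNb F q P c u₀ σ s al p th y u g V₁)
    {S : ℕ → ℝ} (hS : ∀ n, 0 < S n ∧ S n ≤ g n) (hS0 : Tendsto S atTop (𝓝 0))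
    (hTo : ∀ y' u' : ℕ → ℝ, A5.Sq A y₀ u₀ y' u' → A5.Tou H P c u₀ σ th y' u') (hkσ : k u₀ ≤ σ)
    {Xp op X om e V C₀ : ℝ} (hXp : 2 ≤ Xp) (hop : 0 < op) (hop' : op ≤ 1 / 2) (hX : Xp ≤ X)
    (hom : 0 < om) (hom' : om ≤ op) (he : 0 < e) (hV : 0 ≤ V) (hC₀ : 0 < C₀)
    {yp xp rp E a η κ : ℕ → ℝ} (hκ : Tendsto κ atTop (𝓝 0)) (hη : Tendsto η atTop (𝓝 0))
    (haA : ∀ n, a n ∈ A) {Bb : Set ℝ}
    (hP : ∀ᶠ n in atTop,
      SW Λ H F q ((σ + s) / 2 - k u₀) 1 (al ∘ Sx Ψ (y n - (P (u n)).re) (u n) (S n))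
        (p ∘ Sx Ψ (y n - (P (u n)).re) (u n) (S n))
        (th ∘ Sx Ψ (y n - (P (u n)).re) (u n) (S n)) ∧
      Pick H F (al ∘ Sx Ψ (y n - (P (u n)).re) (u n) (S n))
        (p ∘ Sx Ψ (y n - (P (u n)).re) (u n) (S n))
        (th ∘ Sx Ψ (y n - (P (u n)).re) (u n) (S n)) {x | u n + S n * x ∈ A} Bb Xp op X om e V C₀
        (η n) (κ n) (yp n) (xp n) (rp n) (E n) ∧
      |u n + S n * xp n - a n| ≤ Real.sqrt (8 * η n) * (S n * rp n)) : False := by
  set δ := (σ + s) / 2 - k u₀ with hδ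
  have hσs := W.σs
  have hδ0 : 0 < δ := by rw [hδ]; linarith
  have hδ1 : σ - k u₀ < δ := by rw [hδ]; linarith
  have hδ2 : δ < s - k u₀ := by rw [hδ]; linarith
  have hgr : Grw H F q := Vale.Agent.P097.H320.W.grw_of W.crv.gro
  -- small quantities
  have hκ8 : ∀ᶠ n in atTop, κ n < 1 / 8 := hκ.eventually (gt_mem_nhds (by norm_num))
  have hsm : ∀ᶠ n in atTop, |yp n| ≤ κ n ∧ |xp n| ≤ κ n ∧ rp n ≤ κ n ∧ 0 < rp n := by
    filter_upwards [hP] with n hn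
    obtain ⟨-, h, -⟩ := hn
    have h1 := h.loc
    have h2 := h.r0
    have h3 := abs_nonneg (yp n)
    have h4 := abs_nonneg (xp n)
    exact ⟨by linarith, by linarith, by linarith, h2⟩
  have hyp : Tendsto yp atTop (𝓝 0) :=
    squeeze_zero_norm' (by filter_upwards [hsm] with n hn; exact hn.1) hκ
  have hxp : Tendsto xp atTop (𝓝 0) :=
    squeeze_zero_norm' (by filter_upwards [hsm] with n hn; exact hn.2.1) hκ
  have hrp : Tendsto rp atTop (𝓝 0) :=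
    squeeze_zero_norm' (by
      filter_upwards [hsm] with n hn
      rw [Real.norm_eq_abs, abs_of_pos hn.2.2.2]
      exact hn.2.2.1) hκ
  have hE1 : ∀ᶠ n in atTop, 0 < E n ∧ E n ≤ 1 := by
    filter_upwards [hP] with n hn
    refine ⟨hn.2.1.E0, ?_⟩
    rw [hn.2.1.eq]
    exact min_le_left _ _
  have hlE : Tendsto (fun n => rp n * Real.log (E n)⁻¹) atTop (𝓝 0) := by
    refine squeeze_zero_norm' ?_ hκ
    filter_upwards [hP, hE1, hsm] with n hn h1 h2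
    have h3 := hn.2.1.lg
    have h4 : 0 ≤ Real.log (E n)⁻¹ := Real.log_nonneg ((one_le_inv₀ h1.1).2 h1.2)
    rw [max_eq_left h4] at h3
    rw [Real.norm_eq_abs, abs_of_nonneg (mul_nonneg h2.2.2.2.le h4)]
    exact h3
  have hsη : Tendsto (fun n => Real.sqrt (8 * η n)) atTop (𝓝 0) := by
    have h1 : Tendsto (fun n => 8 * η n) atTop (𝓝 0) := by
      have := hη.const_mul 8
      rwa [mul_zero] at this
    have h2 := (Real.continuous_sqrt.tendsto 0).comp h1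
    rw [Real.sqrt_zero] at h2
    exact h2
  -- labels
  have hSr : Tendsto (fun n => S n * rp n) atTop (𝓝 0) := by
    have := hS0.mul hrp
    rwa [mul_zero] at this
  have hva : Tendsto (fun n => u n + S n * xp n - a n) atTop (𝓝 0) := by
    refine squeeze_zero_norm' (a := fun n => Real.sqrt (8 * η n) * (S n * rp n)) ?_ ?_
    · filter_upwards [hP] with n hn
      exact hn.2.2
    · have := hsη.mul hSr
      rwa [mul_zero] at this
  have hvu : Tendsto (fun n => u n + S n * xp n) atTop (𝓝 u₀) := by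
    have := hSq.ut.add (hS0.mul hxp)
    rwa [mul_zero, add_zero] at this
  have hau : Tendsto a atTop (𝓝 u₀) := by
    have := hvu.sub hva
    rw [sub_zero] at this
    refine this.congr fun n => ?_
    ring
  obtain ⟨hPu, -, -⟩ := lim_of W.Uk hSq.uA W.u0 hSq.ut
  obtain ⟨hPa, -, -⟩ := lim_of W.Uk haA W.u0 hau
  have hPu' := (Complex.continuous_re.tendsto _).comp hPu
  have hPa' := (Complex.continuous_re.tendsto _).comp hPa
  set x : ℕ → ℝ := fun n => y n - (P (u n)).re + S n * yp n with hx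
  set v : ℕ → ℝ := fun n => u n + S n * xp n with hv
  set r : ℕ → ℝ := fun n => S n * rp n with hr
  set Y : ℕ → ℝ := fun n => x n + (P (a n)).re with hY
  have hYt : Tendsto Y atTop (𝓝 y₀) := by
    have h1 := ((hSq.yt.sub hPu').add (hS0.mul hyp)).add hPa'
    have e : y₀ - (P u₀).re + 0 * 0 + (P u₀).re = y₀ := by ring
    rw [e] at h1
    exact h1
  have hSq' : A5.Sq A y₀ u₀ Y a := ⟨hYt, hau, haA⟩
  have hr0 : Tendsto r atTop (𝓝[>] 0) := by
    refine tendsto_nhdsWithin_iff.2 ⟨hSr, ?_⟩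
    filter_upwards [hsm] with n hn
    exact mul_pos (hS n).1 hn.2.2.2
  set 𝒰 : Ultrafilter ℕ := Ultrafilter.of atTop with h𝒰
  have hU : (𝒰 : Filter ℕ) ≤ atTop := Ultrafilter.of_le _
  have hSx : ∀ n z, Sx Ψ (x n) (v n) (r n) z =
      Sx Ψ (y n - (P (u n)).re) (u n) (S n) (tr (yp n) (xp n) ((rp n : ℂ) • z)) := fun n z =>
    (H109.NCst.Sx_tr Ψ _ _ _ _ _ _ z).symm
  set cA : ℕ → ℂ := fun n =>
    al (Sx Ψ (y n - (P (u n)).re) (u n) (S n) (pt (yp n) (xp n) (rp n))) with hcAd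
  set cP : ℕ → ℂ := fun n =>
    p (Sx Ψ (y n - (P (u n)).re) (u n) (S n) (pt (yp n) (xp n) (rp n))) with hcPd
  have hom1 : om ≤ 1 := by linarith
  have hX2 : 2 ≤ X := by linarith
  have hPk : ∀ᶠ n in (𝒰 : Filter ℕ), PkH Λ H F q X om e V δ
      (al ∘ Sx Ψ (y n - (P (u n)).re) (u n) (S n)) (p ∘ Sx Ψ (y n - (P (u n)).re) (u n) (S n))
      (th ∘ Sx Ψ (y n - (P (u n)).re) (u n) (S n)) (yp n) (xp n) (rp n) := by
    filter_upwards [hU hP, hU hsm, hU hκ8] with n hn h1 h2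
    exact ⟨hn.1, h1.1.trans h2.le, h1.2.1.trans h2.le, h1.2.2.2, hn.2.1.mv⟩
  -- the lines
  have core : ∀ X' ⊆ H226.W.Wd δ, IsCompact X' → ∃ K' : ℝ, 0 ≤ K' ∧ ∀ R : ℝ, 1 ≤ R →
      ∀ᶠ n in (𝒰 : Filter ℕ), ∀ z ∈ X',
        ‖al (Sx Ψ (y n - (P (u n)).re) (u n) (S n) (tr (yp n) (xp n) (((R * rp n : ℝ) : ℂ) • z))) -
          cA n‖ ≤ K' * Real.sqrt R * (1 + Real.log R) * E n ∧
        ‖p (Sx Ψ (y n - (P (u n)).re) (u n) (S n) (tr (yp n) (xp n) (((R * rp n : ℝ) : ℂ) • z))) -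
          cP n‖ ≤ K' * Real.sqrt R * (1 + Real.log R) * E n := by
    intro X' hX's hX'c
    obtain ⟨K', hK', Z, hZc, hZs, hg⟩ :=
      grow_seq hTd W.crv.cv hgr hXp hop hop' hX hom hom' he hV hC₀ hδ0 hX'c hX's
    obtain ⟨Aₙ, hA0, hA1, hA2⟩ := pick_in W hgr hSq hL hS hS0 hU hX2 hom hom1 he hV hδ0 hδ2 hZc
      (hZs.trans inter_subset_right) hPk (hrp.mono_left hU)
    refine ⟨K', hK', fun R hR => ?_⟩
    have h1 := hg (𝒰 : Filter ℕ) (fun n => al ∘ Sx Ψ (y n - (P (u n)).re) (u n) (S n))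
      (fun n => p ∘ Sx Ψ (y n - (P (u n)).re) (u n) (S n))
      (fun n => th ∘ Sx Ψ (y n - (P (u n)).re) (u n) (S n)) yp xp rp E Aₙ (by
        filter_upwards [hU hP, hPk, hU hE1, hA2] with n hn h1 h2 h3
        exact ⟨hn.1, h1.2.1, h1.2.2.1, h1.2.2.2.1, h2.1, h2.2, hA0 n, h1.2.2.2.2, hn.2.1.gg, h3⟩)
      (hrp.mono_left hU) hA1 (hlE.mono_left hU) R hR
    filter_upwards [h1] with n hn z hz
    have h2 := (hn z hz).2
    rw [LL, LL, Prod.mk_sub_mk, Prod.norm_mk] at h2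
    exact ⟨(le_max_left _ _).trans h2, (le_max_right _ _).trans h2⟩
  -- the lines at the pick
  obtain ⟨C, hC, hc⟩ := pick_c W.crv.cv hgr hX2 hom hom1 he hV
  have hrX : ∀ᶠ n in (𝒰 : Filter ℕ), (X + 5) * rp n ≤ 1 / 2 := by
    have h1 : Tendsto (fun n => (X + 5) * rp n) (𝒰 : Filter ℕ) (𝓝 0) := by
      have := (hrp.mono_left hU).const_mul (X + 5)
      rwa [mul_zero] at this
    filter_upwards [h1.eventually (gt_mem_nhds (show (0 : ℝ) < 1 / 2 by norm_num))] with n hn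
    exact hn.le
  have hcc : ∀ᶠ n in (𝒰 : Filter ℕ), ∃ M : ℤ, ‖cA n - 2 * Real.pi * M‖ ≤ C + 1 ∧ ‖cP n‖ ≤ C + 1 := by
    filter_upwards [hPk, hrX] with n hn hn'
    obtain ⟨⟨M, hM⟩, h2, -⟩ := hc hn hn'
    exact ⟨M, by
      have : ‖cA n - 2 * Real.pi * M‖ ≤ C := hM
      linarith, by
      have : ‖cP n‖ ≤ C := h2
      linarith⟩
  obtain ⟨M, hM⟩ := hcc.choice
  refine H839.Tan.t_end_md W (x := x) (v := v) (y := Y) (a := a) (r := r) hSq' hr0 (hTo Y a hSq')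
    (𝒰 := 𝒰) hU ?_ ?_ hδ1 hδ2.le (cA := cA) (cP := cP) (E := E) (by
      filter_upwards [hU hE1] with n hn using hn.1) (M := M) (C := C + 1) (by
      filter_upwards [hU hE1] with n hn
      have := hn.2
      linarith) (by filter_upwards [hM] with n hn using hn.1) (by filter_upwards [hM] with n hn using hn.2)
    ?_ (H109.NCst.isCompact_P1 Xp op) (H109.NCst.P1_sub_Wd hop hδ0) (c' := 1 / 2) (by norm_num) ?_
    (X := X) (om := om) (e := e) hom he ?_ (θ := 3 / 4) (by norm_num) (by norm_num) ?_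
  · -- hx
    have : (fun n => (Y n - (P (a n)).re - x n) / r n) = fun _ => 0 := by
      funext n
      simp [hY]
    rw [this]
    exact tendsto_const_nhds
  · -- hv
    refine squeeze_zero_norm' ?_ hsη
    filter_upwards [hP, hsm] with n hn h1
    have hrn : 0 < r n := mul_pos (hS n).1 h1.2.2.2
    rw [Real.norm_eq_abs, abs_div, abs_of_pos hrn, div_le_iff₀ hrn, abs_sub_comm]
    exact hn.2.2
  · -- hb
    intro X' hX's hX'c
    obtain ⟨K', hK', h1⟩ := core X' hX's hX'c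
    refine ⟨K', ?_⟩
    filter_upwards [h1 1 le_rfl] with n hn z hz
    have h2 := hn z hz
    rw [one_mul, Real.sqrt_one, Real.log_one, add_zero, mul_one, mul_one] at h2
    rw [hSx]
    exact h2
  · -- hnc
    filter_upwards [hU hP] with n hn
    exact H109.NCst.nc_pick_Sx hn.2.1
  · -- hMd
    filter_upwards [hU hP, hrX, hU hsm] with n hn h1 h2
    have h3 := (hn.2.1.mv (rp n) le_rfl h1).1
    have h4 : Md H F ((th ∘ Sx Ψ (y n - (P (u n)).re) (u n) (S n)) ∘ tr (yp n) (xp n)) X om e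
        (rp n * 1) := by
      rw [mul_one]; exact h3
    have h5 := (md_sh h2.2.2.2).1 h4
    have e1 : (fun z => th (Sx Ψ (x n) (v n) (r n) z)) =
        (th ∘ Sx Ψ (y n - (P (u n)).re) (u n) (S n)) ∘ sh (yp n) (xp n) (rp n) := by
      funext z
      simp only [Function.comp, hSx, sh_tr]
    rw [e1]
    exact h5
  · -- growth
    intro s'' hs'' M'
    obtain ⟨K', hK', h1⟩ := core (Kc s'' M') (Kc_sub hs'') (isCompact_Kc _ _)
    refine ⟨5 * K', ?_⟩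
    intro z hz hz1 hz2 hz3
    have hR0 : 0 < z.2.im := hz.1
    filter_upwards [h1 z.2.im hz1, hU hE1] with n hn hEn
    set R := z.2.im with hR
    set z' : ℂ × ℂ := ((R⁻¹ : ℝ) : ℂ) • z with hz'
    have hz'K : z' ∈ Kc s'' M' := by
      refine ⟨?_, ?_, ?_⟩
      · show ((((R⁻¹ : ℝ) : ℂ)) * z.2).im = 1
        rw [Complex.im_ofReal_mul, ← hR, inv_mul_cancel₀ hR0.ne']
      · show ((((R⁻¹ : ℝ) : ℂ)) * z.1).im ≤ s''
        rw [Complex.im_ofReal_mul, inv_mul_le_iff₀ hR0]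
        linarith
      · rw [norm_smul, Complex.norm_real, Real.norm_eq_abs, abs_of_pos (inv_pos.2 hR0),
          inv_mul_le_iff₀ hR0]
        linarith
    have e1 : ((R * rp n : ℝ) : ℂ) • z' = (rp n : ℂ) • z := by
      rw [hz', smul_smul]
      congr 1
      have : (R : ℂ) ≠ 0 := Complex.ofReal_ne_zero.2 hR0.ne'
      push_cast
      field_simp
    have h2 := hn z' hz'K
    rw [e1, ← hSx] at h2
    have hzn : R ≤ 1 + ‖z‖ := by
      have h3 : R ≤ ‖z.2‖ := (le_abs_self _).trans (Complex.abs_im_le_norm z.2)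
      have h4 : ‖z.2‖ ≤ ‖z‖ := norm_snd_le z
      linarith
    have h5 : K' * Real.sqrt R * (1 + Real.log R) * E n ≤
        5 * K' * (1 + ‖z‖) ^ (3 / 4 : ℝ) * E n := by
      apply mul_le_mul_of_nonneg_right _ hEn.1.le
      have h6 := pow_est hz1
      have h7 : R ^ (3 / 4 : ℝ) ≤ (1 + ‖z‖) ^ (3 / 4 : ℝ) :=
        Real.rpow_le_rpow hR0.le hzn (by norm_num)
      calc K' * Real.sqrt R * (1 + Real.log R) = K' * (Real.sqrt R * (1 + Real.log R)) := by ring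
        _ ≤ K' * (5 * (1 + ‖z‖) ^ (3 / 4 : ℝ)) := by
            apply mul_le_mul_of_nonneg_left _ hK'
            linarith
        _ = _ := by ring
    exact ⟨h2.1.trans h5, h2.2.trans h5⟩

end

/-- **block (T) from SEL and TD** -/
theorem pt_of_st (hSel : SelSt) (hTd : TdSt) : A5.PT := by
  intro Λ H F q b m Ψ Mj Mk B A P c k K s al p th J
  classical
  obtain ⟨Nl, hNl0, hNl⟩ : ∃ Nl : Set ℝ, volume Nl = 0 ∧ (IsCompact A → ∀ u ∈ A, u ∉ Nl →
      ∀ R : ℝ, 0 < R → ∀ η : ℝ, 0 < η → ∃ S₀ > 0, ∀ S : ℝ, 0 < S → S ≤ S₀ →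
        8 * Marc.Jm {x | u + S * x ∈ A} (ball 0 R) 0 ≤ ENNReal.ofReal η) := by
    by_cases hA : IsCompact A
    · obtain ⟨Nl, h0, h1⟩ := H133.St.jm_ae hA.measurableSet hA.isBounded
      exact ⟨Nl, h0, fun _ => h1⟩
    · exact ⟨∅, measure_empty, fun h => absurd h hA⟩
  refine ⟨Nl, hNl0, ?_⟩
  intro y₀ u₀ σ y u W hSq hTo hu C c₁ hC hc₁ h g V₁ hN hg hgt hL hT d hd hw
  have hJ := hNl W.cA
  have hσs := W.σs
  -- the exact slope
  obtain ⟨-, -, hku⟩ := lim_of W.Uk hSq.uA W.u0 hSq.ut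
  have hkσ : k u₀ ≤ σ := H190.SQ.k_le W hSq (hTo y u hSq) (Ultrafilter.of atTop)
    (Ultrafilter.of_le _) (hku.mono_left (Ultrafilter.of_le _))
  -- inputs
  obtain ⟨X, om, e, V, τ, hX, hom, hom', he, hV, hτ, hτ1, hin⟩ :=
    H217.St.sel_in H21.W.brg W hSq hC hc₁ hN hg hL.bd hd hw
  obtain ⟨τ₂, hτ₂, hsw⟩ := H217.St.sw_ev W hSq (γ := (s - σ) / 4) (by linarith)
  obtain ⟨Xp, op, X', om', e', V', C₀, ⟨b1, b2, b3, b4, b5, b6, b7, b8, b9⟩, hsel⟩ :=
    hSel W.crv.cv (H217.St.grw_of' W) (H217.St.per_of W) X om e V hX hom hom' he hV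
  -- the scales
  set η : ℕ → ℝ := fun n => 1 / 8 * (1 / ((n : ℝ) + 1)) with hη
  have hη0 : ∀ n, 0 < η n := fun n => by rw [hη]; positivity
  have hη8 : ∀ n, η n ≤ 1 / 8 := fun n => by
    rw [hη]
    have : 1 / ((n : ℝ) + 1) ≤ 1 := by
      rw [div_le_one (by positivity)]
      have : (0 : ℝ) ≤ n := Nat.cast_nonneg n
      linarith
    linarith
  have hηt : Tendsto η atTop (𝓝 0) := by
    have := tendsto_one_div_add_atTop_nhds_zero_nat (𝕜 := ℝ) |>.const_mul (1 / 8)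
    rwa [mul_zero] at this
  have hJn : ∀ n, ∃ S₀ > 0, ∀ S : ℝ, 0 < S → S ≤ S₀ →
      8 * Marc.Jm {x | u n + S * x ∈ A} (ball 0 1) 0 ≤ ENNReal.ofReal (η n) := fun n =>
    hJ (u n) (hSq.uA n) (hu n) 1 one_pos (η n) (hη0 n)
  choose S₀ hS₀ hS₀J using hJn
  set S : ℕ → ℝ := fun n => min (min (min τ (τ * g n)) (min τ₂ (g n))) (S₀ n) with hSd
  have hSpos : ∀ n, 0 < S n := fun n => by
    have := (hg n).1
    have := hS₀ n
    rw [hSd]
    positivity
  have hS1 : ∀ n, S n ≤ τ := fun n =>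
    (min_le_left _ _).trans ((min_le_left _ _).trans (min_le_left _ _))
  have hS2 : ∀ n, S n ≤ τ * g n := fun n =>
    (min_le_left _ _).trans ((min_le_left _ _).trans (min_le_right _ _))
  have hS3 : ∀ n, S n ≤ τ₂ := fun n =>
    (min_le_left _ _).trans ((min_le_right _ _).trans (min_le_left _ _))
  have hS4 : ∀ n, S n ≤ g n := fun n =>
    (min_le_left _ _).trans ((min_le_right _ _).trans (min_le_right _ _))
  have hS5 : ∀ n, S n ≤ S₀ n := fun n => min_le_right _ _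
  have hS0 : Tendsto S atTop (𝓝 0) :=
    squeeze_zero (fun n => (hSpos n).le) hS4 hgt
  -- the slope
  have hkn : ∀ᶠ n in atTop, k (u n) < k u₀ + (s - σ) / 4 :=
    hku.eventually (gt_mem_nhds (by linarith))
  -- the picks
  have hex : ∀ᶠ n in atTop, ∃ t : ℝ × ℝ × ℝ × ℝ × ℝ,
      t.2.2.2.2 ∈ A ∧
      SW Λ H F q ((σ + s) / 2 - k u₀) 1 (al ∘ Sx Ψ (y n - (P (u n)).re) (u n) (S n))
        (p ∘ Sx Ψ (y n - (P (u n)).re) (u n) (S n))
        (th ∘ Sx Ψ (y n - (P (u n)).re) (u n) (S n)) ∧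
      Pick H F (al ∘ Sx Ψ (y n - (P (u n)).re) (u n) (S n))
        (p ∘ Sx Ψ (y n - (P (u n)).re) (u n) (S n))
        (th ∘ Sx Ψ (y n - (P (u n)).re) (u n) (S n)) {x | u n + S n * x ∈ A} (ball 0 1) Xp op X' om'
        e' V' C₀ (η n) (η n) t.1 t.2.1 t.2.2.1 t.2.2.2.1 ∧
      |u n + S n * t.2.1 - t.2.2.2.2| ≤ Real.sqrt (8 * η n) * (S n * t.2.2.1) := by
    filter_upwards [hin, hsw, hkn] with n h1 h2 h3
    obtain ⟨-, h4, h5⟩ := h1 (S n) (hSpos n) (hS1 n) (hS2 n)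
    have h6 : SW Λ H F q ((σ + s) / 2 - k u₀) 1 (al ∘ Sx Ψ (y n - (P (u n)).re) (u n) (S n))
        (p ∘ Sx Ψ (y n - (P (u n)).re) (u n) (S n))
        (th ∘ Sx Ψ (y n - (P (u n)).re) (u n) (S n)) :=
      h2 (S n) (hSpos n) (hS3 n) ((σ + s) / 2 - k u₀) (by linarith) (by linarith)
    obtain ⟨yp, xp, rp, E, hpk⟩ := hsel (η n) (η n) (hη0 n) (hη0 n) h6 h4 h5
      (A := {x | u n + S n * x ∈ A}) (B := ball 0 1) measurableSet_ball
      (by simpa using hSq.uA n) (hS₀J n (S n) (hSpos n) (hS5 n))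
    have h7 := hpk.loc
    have h8 := hpk.r0
    have hb : ball xp rp ⊆ ball (0 : ℝ) 1 := by
      intro t ht
      rw [mem_ball, Real.dist_eq] at ht
      rw [mem_ball, Real.dist_eq, sub_zero]
      have h9 : |t| ≤ |t - xp| + |xp| := by
        have := abs_add_le (t - xp) xp
        rwa [sub_add_cancel] at this
      have := abs_nonneg yp
      have := hη8 n
      linarith
    obtain ⟨a, ha, hale⟩ := H133.St.lab_scale W.cA.isClosed (hSq.uA n) (hSpos n) h8 hb (hη0 n)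
      (by linarith [hη8 n]) hpk.mz
    exact ⟨(yp, xp, rp, E, a), ha, h6, hpk, hale⟩
  obtain ⟨t, ht⟩ := hex.choice
  set a : ℕ → ℝ := fun n => if (t n).2.2.2.2 ∈ A then (t n).2.2.2.2 else u₀ with ha
  have haA : ∀ n, a n ∈ A := fun n => by
    rw [ha]
    by_cases h1 : (t n).2.2.2.2 ∈ A
    · simp only [if_pos h1]; exact h1
    · simp only [if_neg h1]; exact W.u0
  refine end_of_picks hTd W hSq hL (S := S) (fun n => ⟨hSpos n, hS4 n⟩) hS0 hTo hkσ b1 b2 b3 b4 b5 b6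
    b7 b8 b9 (yp := fun n => (t n).1) (xp := fun n => (t n).2.1) (rp := fun n => (t n).2.2.1)
    (E := fun n => (t n).2.2.2.1) (a := a) (η := η) (κ := η) hηt hηt haA (Bb := ball 0 1) ?_
  filter_upwards [ht] with n hn
  obtain ⟨h1, h2, h3, h4⟩ := hn
  refine ⟨h2, h3, ?_⟩
  have e1 : a n = (t n).2.2.2.2 := by
    rw [ha]
    simp only [if_pos h1]
  rw [e1]
  exact h4

end Vale.Agent.P097.H920.PtSt
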